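import Mathlib

/-!
# P091, T0: Petermichl averaging, definitions  (helper814, literal form of helper827)

The kernel `1/t` is an average (over translations and dilations) of the kernels of the dyadic
shift with the patterns `eta = (+,+,-,-)` (on the `y` side) and `sg = (+,-,-,+)` (on the `x`
side).
-/

set_option autoImplicit false

open MeasureTheory intervalIntegral Set

noncomputable section

namespace Vale.Agent.P091.T0

/-- the `y`-side pattern of the shift: `+1` on `[0,1/2)`, `-1` on `[1/2,1)`, `0` outside -/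
def eta (u : ℝ) : ℝ := if 0 ≤ u ∧ u < 1 / 2 then 1 else if 1 / 2 ≤ u ∧ u < 1 then -1 else 0

/-- the `x`-side pattern of the shift: `+1` on `[0,1/4)`, `-1` on `[1/4,3/4)`, `+1` on `[3/4,1)` -/
def sg (u : ℝ) : ℝ := if u < 1 / 4 then 1 else if u < 3 / 4 then -1 else 1

/-- kernel of the shift at the level with `q` intervals per unit length, translated by `α` -/
def Sh (q α x y : ℝ) : ℝ :=
  q * (sg (Int.fract ((x - α) * q)) * eta (Int.fract ((x - α) * q) + (y - x) * q))

/-- the averaged kernel `∫ sg(u) eta(u - t) du`, explicit piecewise linear form -/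
def kap (t : ℝ) : ℝ := (-|t + 1| + 2 * |t + 3 / 4| + 2 * |t + 1 / 2| - 6 * |t + 1 / 4|
  + 6 * |t - 1 / 4| - 2 * |t - 1 / 2| - 2 * |t - 3 / 4| + |t - 1|) / 2

/-- primitive of `kap`; equal to `-1/8` outside `[-1,1]` -/
def Th (u : ℝ) : ℝ := ∫ s in (0:ℝ)..u, kap s

/-- kernel of the scales `[2^-j, 2^(1-j)]`, averaged over translations and dilations -/
def kk (j : ℤ) (t : ℝ) : ℝ := ∫ r in (1:ℝ)..2, (2:ℝ) ^ j / r * kap (t * ((2:ℝ) ^ j / r)) / r

/-- the grid with parameters `(b, r)`: image of the standard dyadic grid of `[0,1)` under the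
affine map `z ↦ r 2^-J0 (z + b)` -/
def A (J0 : ℤ) (b r z : ℝ) : ℝ := r / (2:ℝ) ^ J0 * (z + b)

/-- the inverse of `A` -/
def Ai (J0 : ℤ) (b r x : ℝ) : ℝ := x * ((2:ℝ) ^ J0 / r) - b

/-- the standard dyadic shift at level `j`: with `v = [k, k+1) / 2^j` the interval containing `z`,
`SH j F z = (1/2) (F_{v0} - F_{v1}) s_v(z)` -/
def SH (j : ℕ) (F : ℝ → ℂ) (z : ℝ) : ℂ :=
  (2:ℂ) ^ j * (sg (Int.fract ((2:ℝ) ^ j * z)) : ℂ)
    * ∫ w, F w * (eta ((2:ℝ) ^ j * w - ⌊(2:ℝ) ^ j * z⌋) : ℂ)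

end Vale.Agent.P091.T0
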